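import Mathlib

/-! # P030, archimedean side: the maximum principle for finite families with an edge rule

`maxP`: finitely many functions `f a`, continuous on compact sets `K a ⊆ ℂ`, each with the local
maximum property on an open set `U a ⊆ K a`; at a point of `K a \ U a` either `f a ≤ B` or
`f a < f b` for another member `b`. Then all `f a ≤ B`.

`LocRe ψ x`: `ψ` is near `x` the real part of a holomorphic function. -/

open Filter Topology Set

namespace Vale.Agent.P030.H742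

theorem maxP {A : Type*} [Finite A] (K U : A → Set ℂ) (hK : ∀ a, IsCompact (K a))
    (hU : ∀ a, IsOpen (U a)) (hUK : ∀ a, U a ⊆ K a) (f : A → ℂ → ℝ)
    (hf : ∀ a, ContinuousOn (f a) (K a))
    (hmax : ∀ a, ∀ x ∈ U a, IsLocalMax (f a) x → ∀ᶠ y in 𝓝 x, f a y = f a x) (B : ℝ)
    (hedge : ∀ a, ∀ x ∈ K a, x ∉ U a → f a x ≤ B ∨ ∃ b, x ∈ K b ∧ f a x < f b x) :
    ∀ a, ∀ x ∈ K a, f a x ≤ B := by
  classical
  by_contra hcon
  push Not at hcon
  obtain ⟨a0, x0, hx0, hB0⟩ := hcon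
  -- the global maximum
  have hmaxa : ∀ a, (K a).Nonempty → ∃ x ∈ K a, ∀ y ∈ K a, f a y ≤ f a x := fun a ha => by
    obtain ⟨x, hx, hx'⟩ := (hK a).exists_isMaxOn ha (hf a)
    exact ⟨x, hx, fun y hy => hx' hy⟩
  let N := {a : A // (K a).Nonempty}
  have : Nonempty N := ⟨⟨a0, ⟨x0, hx0⟩⟩⟩
  choose! xm hxm hxm' using hmaxa
  obtain ⟨a1, ha1⟩ := Finite.exists_max (fun a : N => f a.1 (xm a.1))
  set m := f a1.1 (xm a1.1) with hm
  have hle : ∀ a, ∀ x ∈ K a, f a x ≤ m := fun a x hx =>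
    (hxm' a ⟨x, hx⟩ x hx).trans (ha1 ⟨a, ⟨x, hx⟩⟩)
  have hBm : B < m := hB0.trans_le (hle a0 x0 hx0)
  -- maximisers with largest real part
  let Z : A → Set ℂ := fun a => {x | x ∈ K a ∧ f a x = m}
  have hZc : ∀ a, IsCompact (Z a) := fun a => by
    have h1 : IsClosed (K a ∩ (f a) ⁻¹' {m}) :=
      (hf a).preimage_isClosed_of_isClosed (hK a).isClosed isClosed_singleton
    exact (hK a).of_isClosed_subset h1 inter_subset_left
  let M := {a : A // (Z a).Nonempty}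
  have hMne : Nonempty M := ⟨⟨a1.1, ⟨xm a1.1, hxm a1.1 a1.2, rfl⟩⟩⟩
  have hre : ∀ a, (Z a).Nonempty → ∃ x ∈ Z a, ∀ y ∈ Z a, y.re ≤ x.re := fun a ha => by
    obtain ⟨x, hx, hx'⟩ := (hZc a).exists_isMaxOn ha Complex.continuous_re.continuousOn
    exact ⟨x, hx, fun y hy => hx' hy⟩
  choose! zm hzm hzm' using hre
  obtain ⟨a2, ha2⟩ := Finite.exists_max (fun a : M => (zm a.1).re)
  obtain ⟨hzK, hzm0⟩ := hzm a2.1 a2.2
  have hzU : zm a2.1 ∈ U a2.1 := by
    by_contra h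
    rcases hedge a2.1 _ hzK h with h | ⟨b, hb, h⟩
    · linarith
    · have := hle b _ hb; linarith
  have hloc : IsLocalMax (f a2.1) (zm a2.1) := by
    filter_upwards [(hU a2.1).mem_nhds hzU] with y hy
    rw [hzm0]; exact hle _ _ (hUK _ hy)
  have hev := hmax a2.1 _ hzU hloc
  have hev2 : ∀ᶠ y in 𝓝 (zm a2.1), f a2.1 y = f a2.1 (zm a2.1) ∧ y ∈ U a2.1 :=
    hev.and ((hU a2.1).mem_nhds hzU)
  obtain ⟨ε, hε, hball⟩ := Metric.eventually_nhds_iff.1 hev2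
  have hy := @hball (zm a2.1 + ((ε / 2 : ℝ) : ℂ)) (by
    simp [abs_of_pos hε]; linarith)
  have hyZ : zm a2.1 + ((ε / 2 : ℝ) : ℂ) ∈ Z a2.1 := ⟨hUK _ hy.2, by rw [hy.1, hzm0]⟩
  have := hzm' a2.1 a2.2 _ hyZ
  simp at this
  linarith

/-- `ψ` is near `x` the real part of a holomorphic function -/
def LocRe (ψ : ℂ → ℝ) (x : ℂ) : Prop :=
  ∃ Ψ : ℂ → ℂ, AnalyticAt ℂ Ψ x ∧ ∀ᶠ z in 𝓝 x, (Ψ z).re = ψ z

theorem LocRe.const (c : ℝ) (x : ℂ) : LocRe (fun _ => c) x :=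
  ⟨fun _ => (c : ℂ), analyticAt_const, Eventually.of_forall fun _ => by simp⟩

theorem LocRe.add {ψ φ : ℂ → ℝ} {x : ℂ} (h : LocRe ψ x) (k : LocRe φ x) :
    LocRe (fun z => ψ z + φ z) x := by
  obtain ⟨P, hP, hP'⟩ := h
  obtain ⟨Q, hQ, hQ'⟩ := k
  refine ⟨fun z => P z + Q z, hP.add hQ, ?_⟩
  filter_upwards [hP', hQ'] with z h1 h2
  simp [h1, h2]

theorem LocRe.mul_left {ψ : ℂ → ℝ} {x : ℂ} (c : ℝ) (h : LocRe ψ x) :
    LocRe (fun z => c * ψ z) x := by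
  obtain ⟨P, hP, hP'⟩ := h
  refine ⟨fun z => (c : ℂ) * P z, analyticAt_const.mul hP, ?_⟩
  filter_upwards [hP'] with z h1
  simp [h1]

theorem LocRe.sum {ι : Type*} (s : Finset ι) {ψ : ι → ℂ → ℝ} {x : ℂ}
    (h : ∀ i ∈ s, LocRe (ψ i) x) : LocRe (fun z => ∑ i ∈ s, ψ i z) x := by
  classical
  induction s using Finset.induction_on with
  | empty => simpa using LocRe.const 0 x
  | insert i s hi ih =>
    simp only [Finset.sum_insert hi]
    exact (h i (Finset.mem_insert_self i s)).add (ih fun j hj => h j (Finset.mem_insert_of_mem hj))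

theorem locRe_log {p x : ℂ} (h : x ≠ p) : LocRe (fun z => Real.log ‖z - p‖) x := by
  have h0 : x - p ≠ 0 := sub_ne_zero.2 h
  refine ⟨fun z => Complex.log ((z - p) / (x - p)) + (Real.log ‖x - p‖ : ℂ), ?_, ?_⟩
  · refine AnalyticAt.add (AnalyticAt.clog ?_ ?_) analyticAt_const
    · exact (analyticAt_id.sub analyticAt_const).div analyticAt_const h0
    · rw [div_self h0]; exact Complex.one_mem_slitPlane
  · filter_upwards [isOpen_ne.mem_nhds h] with z hz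
    have hz0 : z - p ≠ 0 := sub_ne_zero.2 hz
    rw [Complex.add_re, Complex.log_re, Complex.ofReal_re, norm_div,
      Real.log_div (norm_ne_zero_iff.2 hz0) (norm_ne_zero_iff.2 h0)]
    ring

theorem locMax {s : ℂ → ℂ} {ψ : ℂ → ℝ} {x : ℂ} (hs : AnalyticAt ℂ s x) (hψ : LocRe ψ x)
    (h : IsLocalMax (fun z => ‖s z‖ * Real.exp (-ψ z)) x) :
    ∀ᶠ y in 𝓝 x, ‖s y‖ * Real.exp (-ψ y) = ‖s x‖ * Real.exp (-ψ x) := by
  obtain ⟨P, hP, hP'⟩ := hψ
  set F : ℂ → ℂ := fun z => s z * Complex.exp (-P z) with hF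
  have hFa : AnalyticAt ℂ F x := hs.mul (hP.neg.cexp)
  have hn : ∀ᶠ z in 𝓝 x, ‖F z‖ = ‖s z‖ * Real.exp (-ψ z) := by
    filter_upwards [hP'] with z hz
    rw [hF]; simp only [norm_mul, Complex.norm_exp, Complex.neg_re, hz]
  have hx : ‖F x‖ = ‖s x‖ * Real.exp (-ψ x) := hn.self_of_nhds
  have hl : IsLocalMax (norm ∘ F) x := by
    filter_upwards [hn, h] with z h1 h2
    simp only [Function.comp, h1, hx]; exact h2
  have hd : ∀ᶠ z in 𝓝 x, DifferentiableAt ℂ F z := hFa.eventually_analyticAt.mono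
    fun z hz => hz.differentiableAt
  have := Complex.norm_eventually_eq_of_isLocalMax hd hl
  filter_upwards [this, hn] with z h1 h2
  rw [← h2, h1, hx]

/-- the edge rule from a linear relation with a margin -/
theorem edge_of_rel {ι : Type*} [Fintype ι] (s : ℂ) (σ : ι → ℂ) (c : ι → ℂ) (C δ t p : ℝ)
    (q : ι → ℝ) (m : ℝ) (hC : ∀ i, ‖c i‖ ≤ C) (hrel : s = ∑ i, c i * σ i) (ht : 0 ≤ t)
    (hpq : ∀ i, c i ≠ 0 → q i + δ ≤ p) (hm : ∀ i, c i ≠ 0 → ‖σ i‖ * Real.exp (-(t * q i)) ≤ m)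
    (hm0 : 0 ≤ m) :
    ‖s‖ * Real.exp (-(t * p)) ≤ Fintype.card ι * C * Real.exp (-(t * δ)) * m := by
  classical
  rcases isEmpty_or_nonempty ι with hι | ⟨⟨i0⟩⟩
  · simp [hrel]
  have hC0 : 0 ≤ C := (norm_nonneg _).trans (hC i0)
  have key : ∀ i, ‖c i * σ i‖ * Real.exp (-(t * p)) ≤ C * Real.exp (-(t * δ)) * m := fun i => by
    by_cases h : c i = 0
    · simp [h]; positivity
    · have h1 := hm i h
      have h2 : Real.exp (-(t * p)) ≤ Real.exp (-(t * δ)) * Real.exp (-(t * q i)) := by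
        rw [← Real.exp_add]; apply Real.exp_le_exp.2; nlinarith [hpq i h]
      calc ‖c i * σ i‖ * Real.exp (-(t * p))
          ≤ (C * ‖σ i‖) * (Real.exp (-(t * δ)) * Real.exp (-(t * q i))) := by
            rw [norm_mul]; gcongr; exact hC i
        _ = C * Real.exp (-(t * δ)) * (‖σ i‖ * Real.exp (-(t * q i))) := by ring
        _ ≤ _ := by gcongr
  calc ‖s‖ * Real.exp (-(t * p)) ≤ (∑ i, ‖c i * σ i‖) * Real.exp (-(t * p)) := by
        rw [hrel]; gcongr; exact norm_sum_le _ _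
    _ = ∑ i, ‖c i * σ i‖ * Real.exp (-(t * p)) := by rw [Finset.sum_mul]
    _ ≤ ∑ _i : ι, C * Real.exp (-(t * δ)) * m := Finset.sum_le_sum fun i _ => key i
    _ = _ := by rw [Finset.sum_const, Finset.card_univ, nsmul_eq_mul]; ring

end Vale.Agent.P030.H742
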